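import Vale.Agent.P130.Main

open MeasureTheory

namespace Vale.Agent.Results.P130.SimpleLebesgue

theorem result : ∃ (X : Type) (_ : MeasurableSpace X) (_ : StandardBorelSpace X)
    (μ : Measure X) (_ : IsProbabilityMeasure μ) (T : X ≃ᵐ X),
    (∀ x, μ {x} = 0) ∧ MeasurePreserving T μ μ ∧ ∃ f : X → ℂ, MemLp f 2 μ ∧ ∫ x, f x ∂μ = 0 ∧
      (∀ n m : ℤ, ∫ x, f ((T.toEquiv ^ n) x) * starRingEnd ℂ (f ((T.toEquiv ^ m) x)) ∂μ
        = if n = m then 1 else 0) ∧
      ∀ g : X → ℂ, MemLp g 2 μ → ∫ x, g x ∂μ = 0 →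
        (∀ n : ℤ, ∫ x, g x * starRingEnd ℂ (f ((T.toEquiv ^ n) x)) ∂μ = 0) → g =ᵐ[μ] 0 := by
  obtain ⟨μ, h1, h2, hT, f, f0, f1, f2⟩ := Vale.Agent.P130.main
  let T : Vale.Agent.P130.X ≃ᵐ Vale.Agent.P130.X :=
    { toFun := Vale.Agent.P130.sh 1
      invFun := Vale.Agent.P130.sh (-1)
      left_inv := fun ξ => by ext w; simp [Vale.Agent.P130.sh]
      right_inv := fun ξ => by ext w; simp [Vale.Agent.P130.sh]
      measurable_toFun := (hT 1).measurable
      measurable_invFun := (hT (-1)).measurable }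
  have e : ∀ (n : ℤ) ξ, (T.toEquiv ^ n) ξ = Vale.Agent.P130.sh n ξ := by
    intro n
    induction n using Int.induction_on with
    | zero => intro ξ; ext w; simp [Vale.Agent.P130.sh]
    | succ n ih =>
      intro ξ
      rw [zpow_add_one, Equiv.Perm.mul_apply, ih]
      ext w; exact congrArg ξ (by simp [add_assoc])
    | pred n ih =>
      intro ξ
      rw [zpow_sub_one, Equiv.Perm.mul_apply, ih]
      ext w; exact congrArg ξ (by simp [add_assoc, sub_eq_add_neg])
  have c : ∀ n, Lp.compMeasurePreservingₗᵢ ℂ _ (hT n) f =ᵐ[μ]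
      fun ξ => f (Vale.Agent.P130.sh n ξ) := fun n => Lp.coeFn_compMeasurePreserving f (hT n)
  refine ⟨_, inferInstance, inferInstance, μ, h1, T, h2.measure_singleton, hT 1, f, Lp.memLp f, f0,
    fun n m => ?_, fun g hg g0 h => ?_⟩
  · have := f1 m n
    rw [L2.inner_def] at this
    simp only [e, eq_comm (a := n), ← this]
    refine integral_congr_ae ?_
    filter_upwards [c n, c m] with ξ a b
    rw [a, b]; simp
  · have := f2 (hg.toLp g) (by rw [integral_congr_ae hg.coeFn_toLp, g0]) fun n => by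
      rw [L2.inner_def, ← h n]
      refine integral_congr_ae ?_
      filter_upwards [c n, hg.coeFn_toLp] with ξ a b
      rw [a, b, e]; simp
    exact hg.coeFn_toLp.symm.trans (this ▸ Lp.coeFn_zero ℂ 2 μ)

end Vale.Agent.Results.P130.SimpleLebesgue
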